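import Mathlib

namespace Vale.Agent.Results.P317.KPavingRatio

open Set Matroid

variable {α : Type*}

/-- Two simultaneous exchanges: if `(e₁,x₁)` and `(e₂,x₂)` are exchangeable with respect to the base
`B` while `(e₁,x₂)` is not, then both exchanges can be carried out at once. -/
lemma double_exchange {M : Matroid α} {B : Set α} {e₁ e₂ x₁ x₂ : α} (hB : M.IsBase B)
    (_he₁ : e₁ ∈ B) (he₂ : e₂ ∈ B) (he : e₁ ≠ e₂) (hx₁ : x₁ ∉ B) (hx₂ : x₂ ∉ B) (hx : x₁ ≠ x₂)
    (h₁ : M.IsBase (insert x₁ (B \ {e₁}))) (h₂ : M.IsBase (insert x₂ (B \ {e₂})))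
    (h₃ : ¬ M.IsBase (insert x₂ (B \ {e₁}))) :
    M.IsBase (insert x₁ (insert x₂ (B \ {e₁, e₂}))) := by
  set I := B \ {e₁, e₂} with hI
  have hIB : I ⊆ B := sdiff_subset
  have hB1 : B \ {e₁} = insert e₂ I := by
    ext y
    simp only [hI, mem_sdiff, mem_singleton_iff, mem_insert_iff, not_or]
    constructor
    · rintro ⟨hy, hy1⟩
      by_cases hy2 : y = e₂
      · exact Or.inl hy2
      · exact Or.inr ⟨hy, hy1, hy2⟩
    · rintro (rfl | ⟨hy, hy1, _⟩)
      · exact ⟨he₂, he.symm⟩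
      · exact ⟨hy, hy1⟩
  have hx₂E : x₂ ∈ M.E := h₂.subset_ground (mem_insert _ _)
  have hx₁E : x₁ ∈ M.E := h₁.subset_ground (mem_insert _ _)
  have hIe₂ : M.Indep (insert e₂ I) := hB.indep.subset (insert_subset he₂ hIB)
  have hx₂cl : x₂ ∈ M.closure (insert e₂ I) := by
    by_contra hcl
    have hnot : x₂ ∉ insert e₂ I := fun h => hx₂ (insert_subset he₂ hIB h)
    have hind := (hIe₂.notMem_closure_iff_of_notMem hnot hx₂E).1 hcl
    rw [← hB1] at hind
    exact h₃ (hB.exchange_isBase_of_indep hx₂ hind)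
  have hIx₂ : M.Indep (insert x₂ I) := by
    refine h₂.indep.subset (insert_subset_insert ?_)
    intro y hy
    refine ⟨hy.1, ?_⟩
    intro hy2
    exact hy.2 (Or.inr hy2)
  have hclsub : M.closure (insert x₂ I) ⊆ M.closure (insert e₂ I) := by
    apply M.closure_subset_closure_of_subset_closure
    apply insert_subset hx₂cl
    exact (subset_insert _ _).trans (M.subset_closure _ hIe₂.subset_ground)
  have hx₁cl : x₁ ∉ M.closure (insert e₂ I) := by
    have hnot : x₁ ∉ insert e₂ I := fun h => hx₁ (insert_subset he₂ hIB h)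
    rw [hIe₂.notMem_closure_iff_of_notMem hnot hx₁E, ← hB1]
    exact h₁.indep
  have hx₁not : x₁ ∉ insert x₂ I := by
    rintro (h | h)
    · exact hx h
    · exact hx₁ (hIB h)
  have hind : M.Indep (insert x₁ (insert x₂ I)) :=
    (hIx₂.notMem_closure_iff_of_notMem hx₁not hx₁E).1 (fun h => hx₁cl (hclsub h))
  -- it is a base, by one more exchange from the base `insert x₁ (B \ {e₁})`
  have hx₂B' : x₂ ∉ insert x₁ (B \ {e₁}) := by
    rintro (h | h)
    · exact hx h.symm
    · exact hx₂ h.1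
  have hset : insert x₂ (insert x₁ (B \ {e₁}) \ {e₂}) = insert x₁ (insert x₂ I) := by
    rw [hB1, insert_comm x₁ x₂]
    congr 1
    ext y
    simp only [mem_sdiff, mem_insert_iff, mem_singleton_iff]
    constructor
    · rintro ⟨h | h | h, hy⟩
      · exact Or.inl h
      · exact absurd h hy
      · exact Or.inr h
    · rintro (h | h)
      · refine ⟨Or.inl h, ?_⟩
        rintro rfl
        exact hx₁ (h ▸ he₂)
      · refine ⟨Or.inr (Or.inr h), ?_⟩
        rintro rfl
        exact h.2 (Or.inr rfl)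
  rw [← hset]
  apply h₁.exchange_isBase_of_indep hx₂B'
  rw [hset]
  exact hind

/-- In a matroid of rank `r` all of whose circuits have at least `r + 1 - k` elements, an element `x`
outside a base `B` can be exchanged with all but at most `k` elements of `B`. -/
lemma miss_bound [Finite α] {M : Matroid α} {B : Set α} {r k : ℕ} (hr : M.eRank = r)
    (hB : M.IsBase B) (hk : ∀ C, M.IsCircuit C → r + 1 ≤ C.ncard + k) {x : α}
    (hxE : x ∈ M.E) (hxB : x ∉ B) :
    {e | e ∈ B ∧ ¬ M.IsBase (insert x (B \ {e}))}.ncard ≤ k := by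
  have hC := hB.fundCircuit_isCircuit hxE hxB
  have hCsub := M.fundCircuit_subset_insert x B
  have hBc : B.ncard = r := by
    have : B.encard = r := by rw [hB.encard_eq_eRank, hr]
    rw [Set.ncard_def, this]; rfl
  have hins : (insert x B).ncard = r + 1 := by
    rw [Set.ncard_insert_of_notMem hxB (Set.toFinite B), hBc]
  have hsub : {e | e ∈ B ∧ ¬ M.IsBase (insert x (B \ {e}))} ⊆ insert x B \ M.fundCircuit x B := by
    rintro e ⟨heB, hne⟩
    refine ⟨Or.inr heB, fun heC => hne ?_⟩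
    have hxe : x ≠ e := fun h => hxB (h ▸ heB)
    have hind := (hB.indep.mem_fundCircuit_iff (by rwa [hB.closure_eq]) hxB).1 heC
    have := hB.exchange_isBase_of_indep' heB hxB hind
    rwa [← insert_sdiff_singleton_comm hxe] at this
  calc _ ≤ (insert x B \ M.fundCircuit x B).ncard := Set.ncard_le_ncard hsub (Set.toFinite _)
    _ = (insert x B).ncard - (M.fundCircuit x B).ncard :=
        Set.ncard_sdiff hCsub (Set.toFinite _)
    _ ≤ k := by
        have := hk _ hC
        omega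

/-- Every base `X` of `M₂` is within `2k - 1` exchanges of a common base. -/
lemma close_common_base [Finite α] (M₁ M₂ : Matroid α) (r k : ℕ)
    (hE : M₁.E = M₂.E) (h₁ : M₁.eRank = r)
    (hk : ∀ C, M₁.IsCircuit C → r + 1 ≤ C.ncard + k)
    (hN : ∃ B, M₁.IsBase B ∧ M₂.IsBase B) {X : Set α} (hX : M₂.IsBase X) :
    ∃ B, M₁.IsBase B ∧ M₂.IsBase B ∧ (B \ X).ncard ≤ 2 * k - 1 := by
  classical
  obtain ⟨B, ⟨hB₁, hB₂⟩, hmin⟩ := Set.exists_min_image {B | M₁.IsBase B ∧ M₂.IsBase B}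
    (fun B => (B \ X).ncard) (Set.toFinite _) hN
  refine ⟨B, hB₁, hB₂, ?_⟩
  -- no single exchange towards `X` gives a common base
  have hsingle : ∀ e ∈ B \ X, ∀ x ∈ X \ B,
      ¬ (M₁.IsBase (insert x (B \ {e})) ∧ M₂.IsBase (insert x (B \ {e}))) := by
    intro e he x hx hboth
    have hle := hmin _ hboth
    have hss : insert x (B \ {e}) \ X ⊂ B \ X := by
      refine ⟨?_, fun hsub => ?_⟩
      · rintro y ⟨hy | hy, hyX⟩
        · exact absurd (hy ▸ hx.1) hyX
        · exact ⟨hy.1, hyX⟩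
      · rcases (hsub he).1 with h | h
        · exact he.2 (h ▸ hx.1)
        · exact h.2 rfl
    exact absurd (Set.ncard_lt_ncard hss (Set.toFinite _)) (not_lt.2 hle)
  have hex : ∀ e ∈ B \ X, ∃ x ∈ X \ B, M₂.IsBase (insert x (B \ {e})) :=
    fun e he => hB₂.exchange hX he
  choose! xf hxf using hex
  let miss : α → Set α := fun e => {e' | e' ∈ B ∧ ¬ M₁.IsBase (insert (xf e) (B \ {e'}))}
  have hmiss : ∀ e ∈ B \ X, (miss e).ncard ≤ k := by
    intro e he
    have hx := (hxf e he).1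
    exact miss_bound h₁ hB₁ hk (hE ▸ hX.subset_ground hx.1) hx.2
  have hself : ∀ e ∈ B \ X, e ∈ miss e := by
    intro e he
    exact ⟨he.1, fun h => hsingle e he _ (hxf e he).1 ⟨h, (hxf e he).2⟩⟩
  have hpair : ∀ e₁ ∈ B \ X, ∀ e₂ ∈ B \ X, e₁ ≠ e₂ → e₂ ∈ miss e₁ ∨ e₁ ∈ miss e₂ := by
    intro e₁ he₁ e₂ he₂ hne
    by_contra hcon
    push Not at hcon
    obtain ⟨hc1, hc2⟩ := hcon
    have hb12 : M₁.IsBase (insert (xf e₁) (B \ {e₂})) := by
      by_contra h
      exact hc1 ⟨he₂.1, h⟩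
    have hb21 : M₁.IsBase (insert (xf e₂) (B \ {e₁})) := by
      by_contra h
      exact hc2 ⟨he₁.1, h⟩
    have hx₁ := hxf e₁ he₁
    have hx₂ := hxf e₂ he₂
    have hxne : xf e₁ ≠ xf e₂ := by
      intro h
      rw [h] at hb12
      exact (hself e₂ he₂).2 hb12
    have hM₂ : M₂.IsBase (insert (xf e₁) (insert (xf e₂) (B \ {e₁, e₂}))) :=
      double_exchange hB₂ he₁.1 he₂.1 hne hx₁.1.2 hx₂.1.2 hxne hx₁.2 hx₂.2
        (fun h => hsingle e₁ he₁ _ hx₂.1 ⟨hb21, h⟩)
    have hM₁ : M₁.IsBase (insert (xf e₁) (insert (xf e₂) (B \ {e₁, e₂}))) := by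
      have := double_exchange hB₁ he₂.1 he₁.1 hne.symm hx₁.1.2 hx₂.1.2 hxne hb12 hb21
        (hself e₂ he₂).2
      rwa [Set.pair_comm] at this
    have hle := hmin _ ⟨hM₁, hM₂⟩
    have hss : insert (xf e₁) (insert (xf e₂) (B \ {e₁, e₂})) \ X ⊂ B \ X := by
      refine ⟨?_, fun hsub => ?_⟩
      · rintro y ⟨hy | hy | hy, hyX⟩
        · exact absurd (hy ▸ hx₁.1.1) hyX
        · exact absurd (hy ▸ hx₂.1.1) hyX
        · exact ⟨hy.1, hyX⟩
      · rcases (hsub he₁).1 with h | h | h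
        · exact he₁.2 (h ▸ hx₁.1.1)
        · exact he₁.2 (h ▸ hx₂.1.1)
        · exact h.2 (Or.inl rfl)
    exact absurd (Set.ncard_lt_ncard hss (Set.toFinite _)) (not_lt.2 hle)
  -- double counting
  set D : Finset α := (Set.toFinite (B \ X)).toFinset with hD
  have hDmem : ∀ e, e ∈ D ↔ e ∈ B \ X := fun e => by simp [hD]
  have hDcard : (B \ X).ncard = D.card := Set.ncard_eq_toFinset_card _ _
  let a : α → α → ℕ := fun e₁ e₂ => if e₂ ∈ miss e₁ then 1 else 0
  have hrow : ∀ e₁ ∈ D, ∑ e₂ ∈ D, a e₁ e₂ ≤ k := by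
    intro e₁ he₁
    have h1 : ∑ e₂ ∈ D, a e₁ e₂ = (D.filter (fun e₂ => e₂ ∈ miss e₁)).card := by
      rw [Finset.card_filter]
    rw [h1]
    calc (D.filter (fun e₂ => e₂ ∈ miss e₁)).card
        = (↑(D.filter (fun e₂ => e₂ ∈ miss e₁)) : Set α).ncard := (Set.ncard_coe_finset _).symm
      _ ≤ (miss e₁).ncard := by
          apply Set.ncard_le_ncard _ (Set.toFinite _)
          intro y hy
          exact (Finset.mem_filter.1 hy).2
      _ ≤ k := hmiss e₁ ((hDmem e₁).1 he₁)
  have hS : ∑ e₁ ∈ D, ∑ e₂ ∈ D, a e₁ e₂ ≤ D.card * k := by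
    calc _ ≤ ∑ _e₁ ∈ D, k := Finset.sum_le_sum hrow
      _ = D.card * k := by simp
  have hlow : ∑ e₁ ∈ D, ∑ e₂ ∈ D, (1 + if e₁ = e₂ then 1 else 0) ≤
      ∑ e₁ ∈ D, ∑ e₂ ∈ D, (a e₁ e₂ + a e₂ e₁) := by
    apply Finset.sum_le_sum
    intro e₁ he₁
    apply Finset.sum_le_sum
    intro e₂ he₂
    by_cases h : e₁ = e₂
    · subst h
      have := hself e₁ ((hDmem e₁).1 he₁)
      simp [a, this]
    · rcases hpair e₁ ((hDmem e₁).1 he₁) e₂ ((hDmem e₂).1 he₂) h with h' | h'
      · simp only [h, if_false, a, h', if_true]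
        omega
      · simp only [h, if_false, a, h', if_true]
        omega
  have hlow' : ∑ e₁ ∈ D, ∑ e₂ ∈ D, (1 + if e₁ = e₂ then 1 else 0) = D.card * D.card + D.card := by
    simp only [Finset.sum_add_distrib, Finset.sum_const, smul_eq_mul, mul_one]
    congr 1
    calc ∑ e₁ ∈ D, ∑ e₂ ∈ D, (if e₁ = e₂ then 1 else 0) = ∑ e₁ ∈ D, 1 := by
          apply Finset.sum_congr rfl
          intro e₁ he₁
          simp [he₁]
      _ = D.card := by simp
  have hup : ∑ e₁ ∈ D, ∑ e₂ ∈ D, (a e₁ e₂ + a e₂ e₁) ≤ 2 * (D.card * k) := by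
    simp only [Finset.sum_add_distrib]
    have hcomm : ∑ e₁ ∈ D, ∑ e₂ ∈ D, a e₂ e₁ = ∑ e₁ ∈ D, ∑ e₂ ∈ D, a e₁ e₂ := Finset.sum_comm
    rw [hcomm]
    omega
  rw [hDcard]
  have hfin : D.card * D.card + D.card ≤ 2 * (D.card * k) := by
    rw [← hlow']
    exact hlow.trans hup
  rcases Nat.eq_zero_or_pos D.card with h0 | hpos
  · omega
  · have : D.card * (D.card + 1) ≤ D.card * (2 * k) := by nlinarith
    have := Nat.le_of_mul_le_mul_left this hpos
    omega

/-- **Main result.**  Let `M₁`, `M₂` be matroids on the same finite ground set `E`, let `M₁` have rank `r` and let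
`M₁` be `k`-paving (`k ≥ 1`): every circuit of `M₁` has at least `r + 1 - k` elements (`k = 1` is the
class of paving matroids).  If `M₁` and `M₂` have a common base at all (so that `M₂` has rank `r` too), then
* every base `X` of `M₂` is within `2k - 1` exchanges of a common base `B`, and
* the number of bases of `M₂` is at most `∑_{i < 2k} C(r,i) C(|E|-r,i)` times the number of common
  bases. -/
theorem result [Finite α] (M₁ M₂ : Matroid α) (r k : ℕ) (hk1 : 1 ≤ k)
    (hE : M₁.E = M₂.E) (h₁ : M₁.eRank = r)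
    (hk : ∀ C, M₁.IsCircuit C → r + 1 ≤ C.ncard + k)
    (hN : ∃ B, M₁.IsBase B ∧ M₂.IsBase B) :
    (∀ X, M₂.IsBase X → ∃ B, M₁.IsBase B ∧ M₂.IsBase B ∧ (B \ X).ncard ≤ 2 * k - 1) ∧
    {B | M₂.IsBase B}.ncard ≤
      (∑ i ∈ Finset.range (2 * k), r.choose i * (M₁.E.ncard - r).choose i) *
        {B | M₁.IsBase B ∧ M₂.IsBase B}.ncard := by
  classical
  have hclose : ∀ X, M₂.IsBase X → ∃ B, M₁.IsBase B ∧ M₂.IsBase B ∧ (B \ X).ncard ≤ 2 * k - 1 :=
    fun X hX => close_common_base M₁ M₂ r k hE h₁ hk hN hX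
  refine ⟨hclose, ?_⟩
  set N : Set (Set α) := {B | M₁.IsBase B ∧ M₂.IsBase B} with hNdef
  let Nf : Finset (Set α) := (Set.toFinite N).toFinset
  let t : Set α → Finset (Set α) := fun B =>
    (Finset.range (2 * k)).biUnion fun i =>
      (Finset.powersetCard i (Set.toFinite B).toFinset ×ˢ
        Finset.powersetCard i (Set.toFinite (M₁.E \ B)).toFinset).image
        (fun p : Finset α × Finset α => (B \ (↑p.1 : Set α)) ∪ (↑p.2 : Set α))
  have hsub : {B | M₂.IsBase B} ⊆ (↑(Nf.biUnion t) : Set (Set α)) := by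
    intro X hX
    obtain ⟨B, hB₁, hB₂, hd⟩ := hclose X hX
    rw [Finset.mem_coe, Finset.mem_biUnion]
    refine ⟨B, by simpa [Nf, hNdef] using ⟨hB₁, hB₂⟩, ?_⟩
    rw [Finset.mem_biUnion]
    refine ⟨(B \ X).ncard, Finset.mem_range.2 (by omega), ?_⟩
    rw [Finset.mem_image]
    refine ⟨((Set.toFinite (B \ X)).toFinset, (Set.toFinite (X \ B)).toFinset), ?_, ?_⟩
    · rw [Finset.mem_product, Finset.mem_powersetCard, Finset.mem_powersetCard]
      refine ⟨⟨?_, ?_⟩, ?_, ?_⟩
      · intro y hy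
        simp only [Set.Finite.mem_toFinset] at hy ⊢
        exact hy.1
      · exact (Set.ncard_eq_toFinset_card _ _).symm
      · intro y hy
        simp only [Set.Finite.mem_toFinset] at hy ⊢
        exact ⟨hE ▸ hX.subset_ground hy.1, hy.2⟩
      · rw [← Set.ncard_eq_toFinset_card, hB₂.ncard_sdiff_comm hX]
    · simp only [Set.Finite.coe_toFinset]
      ext y
      simp only [Set.mem_union, Set.mem_sdiff, not_and, not_not]
      constructor
      · rintro (⟨hyB, hy⟩ | hy)
        · exact hy hyB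
        · exact hy.1
      · intro hyX
        by_cases hyB : y ∈ B
        · exact Or.inl ⟨hyB, fun _ => hyX⟩
        · exact Or.inr ⟨hyX, hyB⟩
  have hcardt : ∀ B ∈ Nf, (t B).card ≤
      ∑ i ∈ Finset.range (2 * k), r.choose i * (M₁.E.ncard - r).choose i := by
    intro B hB
    have hB' : M₁.IsBase B ∧ M₂.IsBase B := by simpa [Nf, hNdef] using hB
    have hBc : B.ncard = r := by
      have : B.encard = r := by rw [hB'.1.encard_eq_eRank, h₁]
      rw [Set.ncard_def, this]; rfl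
    have hc1 : (Set.toFinite B).toFinset.card = r := by
      rw [← Set.ncard_eq_toFinset_card, hBc]
    have hc2 : (Set.toFinite (M₁.E \ B)).toFinset.card = M₁.E.ncard - r := by
      rw [← Set.ncard_eq_toFinset_card, Set.ncard_sdiff hB'.1.subset_ground (Set.toFinite B), hBc]
    refine Finset.card_biUnion_le.trans (Finset.sum_le_sum fun i _ => ?_)
    refine Finset.card_image_le.trans ?_
    rw [Finset.card_product, Finset.card_powersetCard, Finset.card_powersetCard, hc1, hc2]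
  calc {B | M₂.IsBase B}.ncard ≤ (↑(Nf.biUnion t) : Set (Set α)).ncard :=
        Set.ncard_le_ncard hsub (Finset.finite_toSet _)
    _ = (Nf.biUnion t).card := Set.ncard_coe_finset _
    _ ≤ Nf.card * _ := Finset.card_biUnion_le_card_mul _ _ _ hcardt
    _ = _ := by
        rw [Set.ncard_eq_toFinset_card N, mul_comm]

end Vale.Agent.Results.P317.KPavingRatio
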