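import Mathlib

namespace Vale.Agent.Results.P317.PavingRatio

open Set Matroid

variable {α : Type*}

/-- An independent set with as many elements as the rank is a base (finite ground type). -/
lemma isBase_of_indep_of_encard [Finite α] {M : Matroid α} {I : Set α} {r : ℕ}
    (hr : M.eRank = r) (hI : M.Indep I) (hc : I.encard = r) : M.IsBase I := by
  obtain ⟨B, hB, hIB⟩ := hI.exists_isBase_superset
  have hBc : B.encard = r := by rw [hB.encard_eq_eRank, hr]
  have : I = B := (Set.toFinite I).eq_of_subset_of_encard_le hIB (by rw [hBc, hc])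
  exact this ▸ hB

/-- Key step: a base `X` of `M₂` that is not a base of the paving matroid `M₁` is one exchange away
from a common base. -/
lemma exists_common_exchange [Finite α] (M₁ M₂ : Matroid α) (r : ℕ)
    (h₁ : M₁.eRank = r) (h₂ : M₂.eRank = r) (hE : M₁.E = M₂.E)
    (hpav : ∀ C, M₁.IsCircuit C → r ≤ C.ncard)
    {B₀ : Set α} (hB₀₁ : M₁.IsBase B₀) (hB₀₂ : M₂.IsBase B₀)
    {X : Set α} (hX₂ : M₂.IsBase X) (hX₁ : ¬ M₁.IsBase X) :
    ∃ B e f, M₁.IsBase B ∧ M₂.IsBase B ∧ e ∈ B ∧ f ∈ M₁.E \ B ∧ X = insert f B \ {e} := by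
  have hXc : X.encard = r := by rw [hX₂.encard_eq_eRank, h₂]
  have hXE : X ⊆ M₁.E := hE ▸ hX₂.subset_ground
  have hXdep : M₁.Dep X := by
    rw [← not_indep_iff hXE]
    exact fun hI => hX₁ (isBase_of_indep_of_encard h₁ hI hXc)
  obtain ⟨C, hCX, hC⟩ := hXdep.exists_isCircuit_subset
  have hCeq : C = X := by
    apply (Set.toFinite C).eq_of_subset_of_encard_le hCX
    rw [hXc, ← (Set.toFinite C).cast_ncard_eq]
    exact_mod_cast hpav C hC
  subst hCeq
  obtain ⟨f₀, hf₀⟩ := hC.nonempty
  have hI₀ : M₁.Indep (C \ {f₀}) := hC.sdiff_singleton_indep hf₀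
  have hI₀nb : ¬ M₁.IsBase (C \ {f₀}) := by
    intro hb
    have h1 : (C \ {f₀}).encard = r := by rw [hb.encard_eq_eRank, h₁]
    have h2 : (C \ {f₀}).encard + 1 = C.encard := Set.encard_sdiff_singleton_add_one hf₀
    rw [h1, hXc] at h2
    have : (r : ℕ∞) + 1 ≠ r := by
      exact_mod_cast Nat.succ_ne_self r
    exact this h2
  obtain ⟨e, he, heI⟩ := hI₀.exists_insert_of_not_isBase hI₀nb hB₀₁
  have heE : e ∈ M₁.E := hB₀₁.subset_ground he.1
  have hecl : e ∉ M₁.closure C := by
    rw [← hC.closure_sdiff_singleton_eq f₀]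
    exact (hI₀.notMem_closure_iff_of_notMem he.2 heE).2 heI
  have heC : e ∉ C := fun h => hecl (M₁.subset_closure C hC.subset_ground h)
  -- exchange in M₂
  have hesing : M₂.Indep {e} := hB₀₂.indep.subset (by simpa using he.1)
  obtain ⟨B, hB, heB, hBsub⟩ := hesing.exists_isBase_subset_union_isBase hX₂
  have heB' : e ∈ B := heB rfl
  have hdiff : B \ C = {e} := by
    ext x
    constructor
    · rintro ⟨hxB, hxC⟩
      rcases hBsub hxB with h | h
      · exact h
      · exact absurd h hxC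
    · rintro rfl
      exact ⟨heB', heC⟩
  obtain ⟨f, hf, hCeq⟩ := hB.eq_exchange_of_sdiff_eq_singleton hX₂ hdiff
  have hBsub' : B ⊆ insert e (C \ {f}) := by
    intro x hxB
    rcases hBsub hxB with h | h
    · exact Or.inl h
    · refine Or.inr ⟨h, ?_⟩
      rintro rfl
      exact hf.2 hxB
  have hind : M₁.Indep (insert e (C \ {f})) := by
    have hI : M₁.Indep (C \ {f}) := hC.sdiff_singleton_indep hf.1
    have : e ∉ M₁.closure (C \ {f}) := by rwa [hC.closure_sdiff_singleton_eq f]
    exact (hI.notMem_closure_iff_of_notMem (fun h => heC h.1) heE).1 this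
  have hB₁ : M₁.IsBase B :=
    isBase_of_indep_of_encard h₁ (hind.subset hBsub') (by rw [hB.encard_eq_eRank, h₂])
  exact ⟨B, e, f, hB₁, hB, heB', ⟨hXE hf.1, hf.2⟩, hCeq⟩

/-- **Main result.**  Let `M₁`, `M₂` be matroids on the same finite ground set `E`, both of rank `r`,
with `M₁` paving (every circuit of `M₁` has at least `r` elements).  If they have a common base at
all, then the common bases make up at least a `1 / (1 + r (|E| - r))` fraction of the bases of `M₂`. -/
theorem result [Finite α] (M₁ M₂ : Matroid α) (r : ℕ)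
    (hE : M₁.E = M₂.E) (h₁ : M₁.eRank = r) (h₂ : M₂.eRank = r)
    (hpav : ∀ C, M₁.IsCircuit C → r ≤ C.ncard)
    (hN : ∃ B, M₁.IsBase B ∧ M₂.IsBase B) :
    {B | M₂.IsBase B}.ncard ≤
      (1 + r * (M₁.E.ncard - r)) * {B | M₁.IsBase B ∧ M₂.IsBase B}.ncard := by
  classical
  obtain ⟨B₀, hB₀₁, hB₀₂⟩ := hN
  set N : Set (Set α) := {B | M₁.IsBase B ∧ M₂.IsBase B} with hNdef
  let Nf : Finset (Set α) := (Set.toFinite N).toFinset
  let t : Set α → Finset (Set α) := fun B =>
    ((Set.toFinite B).toFinset ×ˢ (Set.toFinite (M₁.E \ B)).toFinset).image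
      (fun p : α × α => insert p.2 B \ {p.1})
  have hsub : {B | M₂.IsBase B} ⊆ (↑(Nf ∪ Nf.biUnion t) : Set (Set α)) := by
    intro X hX
    by_cases hX₁ : M₁.IsBase X
    · simp only [Finset.coe_union, Set.mem_union, Finset.mem_coe]
      left
      simpa [Nf, hNdef] using ⟨hX₁, hX⟩
    · obtain ⟨B, e, f, hB₁, hB₂, he, hf, hXeq⟩ :=
        exists_common_exchange M₁ M₂ r h₁ h₂ hE hpav hB₀₁ hB₀₂ hX hX₁
      simp only [Finset.coe_union, Set.mem_union, Finset.mem_coe]
      right
      rw [Finset.mem_biUnion]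
      refine ⟨B, by simpa [Nf, hNdef] using ⟨hB₁, hB₂⟩, ?_⟩
      rw [Finset.mem_image]
      refine ⟨(e, f), ?_, hXeq.symm⟩
      simp only [Finset.mem_product, Set.Finite.mem_toFinset]
      exact ⟨he, hf⟩
  have hcardt : ∀ B ∈ Nf, (t B).card ≤ r * (M₁.E.ncard - r) := by
    intro B hB
    have hB' : M₁.IsBase B ∧ M₂.IsBase B := by simpa [Nf, hNdef] using hB
    have hBc : B.ncard = r := by
      have : B.encard = r := by rw [hB'.1.encard_eq_eRank, h₁]
      rw [Set.ncard_def, this]; rfl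
    calc (t B).card ≤ ((Set.toFinite B).toFinset ×ˢ (Set.toFinite (M₁.E \ B)).toFinset).card :=
          Finset.card_image_le
      _ = B.ncard * (M₁.E \ B).ncard := by
          rw [Finset.card_product, Set.ncard_eq_toFinset_card B, Set.ncard_eq_toFinset_card (M₁.E \ B)]
      _ = r * (M₁.E.ncard - r) := by
          rw [Set.ncard_sdiff hB'.1.subset_ground (Set.toFinite B), hBc]
  calc {B | M₂.IsBase B}.ncard ≤ (↑(Nf ∪ Nf.biUnion t) : Set (Set α)).ncard :=
        Set.ncard_le_ncard hsub (Finset.finite_toSet _)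
    _ = (Nf ∪ Nf.biUnion t).card := Set.ncard_coe_finset _
    _ ≤ Nf.card + (Nf.biUnion t).card := Finset.card_union_le _ _
    _ ≤ Nf.card + Nf.card * (r * (M₁.E.ncard - r)) := by
        gcongr
        exact Finset.card_biUnion_le_card_mul _ _ _ hcardt
    _ = (1 + r * (M₁.E.ncard - r)) * N.ncard := by
        rw [Set.ncard_eq_toFinset_card N]
        ring

end Vale.Agent.Results.P317.PavingRatio
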